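import Vale.Agent.Lib.P237.Eq.Main
import Vale.Agent.Lib.P237.PN.Main

open MeasureTheory
open scoped Real

namespace Vale.Agent.Results.P237.A00PettySummary

/-- **Petty's projection-volume conjecture: the full answer for `n = 3` and the near-sharp bound
for all `n`.** First, every convex body `K` in `ℝ³` has a unique projection body `L`, one has
`|L| ≥ (3 π² / 4) |K|²`, and equality holds exactly for the ellipsoids. Second, for every
`n = m + 1 ≥ 3`, every convex body `K` in `ℝⁿ` has a unique projection body `L`, and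
`|L| ≥ r_n |K|^(n-1)`, where `r_n ≥ exp (-(log n)²) κ_(n-1)^n κ_n^(2-n)`, the last factor being the
constant of Petty's conjecture. -/
theorem result :
    (∀ {K : Set Vale.Agent.Lib.P237.Stmt.E3}, IsCompact K → Convex ℝ K → (interior K).Nonempty →
      ∃ L, Vale.Agent.Lib.P237.Stmt.IsProjectionBody K L ∧
        (∀ L', Vale.Agent.Lib.P237.Stmt.IsProjectionBody K L' → L' = L) ∧
        3 * π ^ 2 / 4 * (volume K).toReal ^ 2 ≤ (volume L).toReal ∧
        ((volume L).toReal = 3 * π ^ 2 / 4 * (volume K).toReal ^ 2 ↔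
          ∃ (a : Vale.Agent.Lib.P237.Stmt.E3) (T : Vale.Agent.Lib.P237.Stmt.E3 ≃ₗ[ℝ] Vale.Agent.Lib.P237.Stmt.E3),
            K = (fun x => a + T x) '' Metric.closedBall (0 : Vale.Agent.Lib.P237.Stmt.E3) 1)) ∧
    (∀ {m : ℕ}, 2 ≤ m → ∀ {K : Set (Vale.Agent.Lib.P237.StmtN.EE (m + 1))},
      IsCompact K → Convex ℝ K → (interior K).Nonempty →
      ∃ L, Vale.Agent.Lib.P237.StmtN.IsProjectionBody K L ∧
        (∀ L', Vale.Agent.Lib.P237.StmtN.IsProjectionBody K L' → L' = L) ∧
        Vale.Agent.Lib.P237.StmtN.rConst (m + 1) * (volume K).toReal ^ m ≤ (volume L).toReal ∧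
        Real.exp (-(Real.log ((m + 1 : ℕ) : ℝ)) ^ 2) * Vale.Agent.Lib.P237.StmtN.pettyConst (m + 1)
          ≤ Vale.Agent.Lib.P237.StmtN.rConst (m + 1)) := by
  refine ⟨fun hK hKc hi => Vale.Agent.Lib.P237.Petty.Eq.petty_three_equality hK hKc hi, ?_⟩
  intro m hm K hK hKc hi
  obtain ⟨L, h1, h2, h3⟩ := Vale.Agent.Lib.P237.PN.petty_all_dim hm hK hKc hi
  exact ⟨L, h1, h2, h3, Vale.Agent.Lib.P237.PN.pettyConst_le_rConst (by omega)⟩

end Vale.Agent.Results.P237.A00PettySummary
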