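import Vale.Agent.Lib.P237.Star

open MeasureTheory

namespace Vale.Agent.Results.P237.ASeven

open Vale.Agent.Lib.P237

/-- For every finite family of vectors `a i` in three dimensional Euclidean space, with
`Z = ∑ [-a i, a i]`, with `ΠZ = ∑_(i,j) [-2 a i × a j, 2 a i × a j]` its projection body and
`h x = ∑_(i,j) |⟪2 a i × a j, x⟫|` the support function of `ΠZ`:
first, `|ΠZ| ≥ 4 |Z|² + (16/3) ∫_Z h`, and second, whenever Petty's projection inequality
`|{h ≤ 1}| |Z|² ≤ 64/27` holds for `Z`, `|ΠZ| ≥ 7 |Z|²`. -/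
theorem result {ι : Type} [Fintype ι] (a : ι → E3) :
    4 * (volume (zonotope a)).toReal ^ 2
        + (16 / 3) * ∫ x in zonotope a, ∑ p, |inner ℝ (projGen a p) x|
      ≤ (volume (zonotope (projGen a))).toReal ∧
    (volume {x : E3 | ∑ p, |inner ℝ (projGen a p) x| ≤ 1} * volume (zonotope a) ^ 2
        ≤ ENNReal.ofReal (64 / 27) →
      7 * (volume (zonotope a)).toReal ^ 2 ≤ (volume (zonotope (projGen a))).toReal) :=
  ⟨zonotope_star a, zonotope_seven a⟩

end Vale.Agent.Results.P237.ASeven
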