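import Vale.Agent.Lib.P237.PettyStmtConv

open MeasureTheory Set
open scoped Pointwise

namespace Vale.Agent.Results.P237.FixedPointThree

open Vale.Agent.Lib.P237.Stmt

/-- For `K` in John position with `L = Π K`, `M = Π L`, and `M ⊆ c₀ K`: `c₀ ≥ (3 π² / 4) |K|`.
In particular this holds for a fixed point `Π² K = c₀ K`. -/
theorem result {ι : Type} [Fintype ι] {K L M : Set E3} {c₀ : ℝ} {y : ι → E3} {c : ι → ℝ}
    (hJ : InJohnPosition K y c) (hL : IsProjectionBody K L) (hM : IsProjectionBody L M) (hc₀ : 0 ≤ c₀)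
    (hfix : M ⊆ c₀ • K) : 3 * Real.pi ^ 2 / 4 * (volume K).toReal ≤ c₀ :=
  Vale.Agent.Lib.P237.Petty.fixed_point hJ.compact hJ.convex hJ.symm hJ.ball
    (Vale.Agent.Lib.P237.Petty.toIsProjBody hJ.compact hL)
    (Vale.Agent.Lib.P237.Petty.toIsProjBody hL.compact hM) hc₀ hfix y c hJ.pos hJ.unit hJ.decomp hJ.strip

end Vale.Agent.Results.P237.FixedPointThree
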