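import Vale.Agent.Lib.P237.PN.Main

open MeasureTheory

namespace Vale.Agent.Results.P237.PettyAllDim

open Vale.Agent.Lib.P237.StmtN

/-- **Petty's projection inequality in all dimensions, up to a factor `exp ((log n)²)`.** For every
`n = m + 1 ≥ 3`, every convex body `K` in `ℝⁿ` has a unique projection body `L`, and
`|L| ≥ r_n |K|^(n-1)`, where `r_3 = 3 π² / 4` and `r_n = r_(n-1) κ_n^(1/n)`; and
`r_n ≥ exp (-(log n)²) κ_(n-1)^n κ_n^(2-n)`, the last factor being the constant of Petty's conjecture. -/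
theorem result {m : ℕ} (hm : 2 ≤ m) {K : Set (EE (m + 1))} (hK : IsCompact K) (hKc : Convex ℝ K)
    (hi : (interior K).Nonempty) :
    ∃ L, IsProjectionBody K L ∧ (∀ L', IsProjectionBody K L' → L' = L) ∧
      rConst (m + 1) * (volume K).toReal ^ m ≤ (volume L).toReal ∧
      Real.exp (-(Real.log ((m + 1 : ℕ) : ℝ)) ^ 2) * pettyConst (m + 1) ≤ rConst (m + 1) := by
  obtain ⟨L, h1, h2, h3⟩ := Vale.Agent.Lib.P237.PN.petty_all_dim hm hK hKc hi
  exact ⟨L, h1, h2, h3, Vale.Agent.Lib.P237.PN.pettyConst_le_rConst (by omega)⟩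

end Vale.Agent.Results.P237.PettyAllDim
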