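import Vale.Agent.Lib.P237.Eq.Main

open MeasureTheory
open scoped Real

namespace Vale.Agent.Results.P237.PettyEquality

open Vale.Agent.Lib.P237

/-- **Petty's projection-volume conjecture in dimension three, with its equality case.** Every
convex body `K` in `ℝ³` has a unique projection body `L`, one has `|L| ≥ (3 π² / 4) |K|²`, and
equality holds exactly for the ellipsoids `a + T B`, `T` an invertible linear map. -/
theorem result {K : Set Stmt.E3} (hK : IsCompact K) (hKc : Convex ℝ K)
    (hi : (interior K).Nonempty) :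
    ∃ L, Stmt.IsProjectionBody K L ∧ (∀ L', Stmt.IsProjectionBody K L' → L' = L) ∧
      3 * π ^ 2 / 4 * (volume K).toReal ^ 2 ≤ (volume L).toReal ∧
      ((volume L).toReal = 3 * π ^ 2 / 4 * (volume K).toReal ^ 2 ↔
        ∃ (a : Stmt.E3) (T : Stmt.E3 ≃ₗ[ℝ] Stmt.E3),
          K = (fun x => a + T x) '' Metric.closedBall (0 : Stmt.E3) 1) :=
  Petty.Eq.petty_three_equality hK hKc hi

end Vale.Agent.Results.P237.PettyEquality
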