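import Vale.Agent.Lib.P237.PettyFinal

open MeasureTheory

namespace Vale.Agent.Results.P237.PettyThree

open Vale.Agent.Lib.P237.Stmt

/-- **Petty's projection inequality in dimension three.** Every convex body `K` in `ℝ³` has a unique
projection body `L`, and `|L| ≥ (3 π² / 4) |K|²`, where `3 π² / 4 = κ₂³ κ₃⁻¹` is the value at balls. -/
theorem result {K : Set E3} (hK : IsCompact K) (hKc : Convex ℝ K) (hi : (interior K).Nonempty) :
    ∃ L, IsProjectionBody K L ∧ (∀ L', IsProjectionBody K L' → L' = L) ∧
      3 * Real.pi ^ 2 / 4 * (volume K).toReal ^ 2 ≤ (volume L).toReal :=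
  Vale.Agent.Lib.P237.Petty.petty_three hK hKc hi

end Vale.Agent.Results.P237.PettyThree
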