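import Vale.Agent.Lib.P237.Volume3

open MeasureTheory

namespace Vale.Agent.Results.P237.ZonotopeSix

open Vale.Agent.Lib.P237

/-- For every finite family of vectors `a i` in three dimensional Euclidean space, the zonotope
`Z = ∑ [-a i, a i]` and its projection body `ΠZ = ∑_(i,j) [-2 a i × a j, 2 a i × a j]` satisfy
`|ΠZ| ≥ 6 |Z|²`. -/
theorem result {ι : Type} [Fintype ι] (a : ι → E3) :
    6 * (volume (zonotope a)).toReal ^ 2 ≤ (volume (zonotope (projGen a))).toReal :=
  zonotope_six a

end Vale.Agent.Results.P237.ZonotopeSix
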